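import Vale.Agent.P064.Graph

namespace Vale.Agent.Results.P064.Main

open Vale.Agent.P064

/-- The second Kahn-Kalai conjecture. -/
theorem result : ∃ C : ℝ, ∀ (n m : ℕ) (H : SimpleGraph (Fin m)), 2 ≤ n → m ≤ n →
    H.edgeSet.Nonempty → pc n H ≤ C * pE n H * Real.log n :=
  ⟨160 * Real.exp 100, fun _ _ H hn hm hH => main H hn hm hH⟩

end Vale.Agent.Results.P064.Main
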